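import Vale.Agent.H18.PM.Main

/-!
P067: pseudomanifolds are never good coboundary expanders.

A pure d-dimensional complex (d = k + 2) is given by the family F of its d-faces.  If every
(d-1)-face lies in exactly two d-faces and the dual graph is connected, then the coboundary
expansion inequality at level d - 1 with constant ε forces
ε * log |F| ≤ (d + 1) * log (d + 2).
-/

namespace Vale.Agent.Results.P067.A_PseudomanifoldObstruction

open H18PM

/-- Let d = k + 2, let F be a family of (d+1)-element subsets of a finite vertex type V
(the d-faces of a pure d-dimensional simplicial complex X), such that every (d-1)-face lies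
in exactly two members of F (hpm) and any two members of F are joined by a chain of members of
F in which consecutive ones share d vertices (hconn).  Suppose ε > 0 and the coboundary
expansion inequality holds at level d - 1: for every (d-1)-cochain f there is a
(d-2)-cochain g with ε * ‖f + δ g‖_{d-1} ≤ ‖δ f‖_d, that is
‖δ f‖_d ≥ ε * dist (f, B^{d-1}).  Then ε * log |F| ≤ (d + 1) * log (d + 2). -/
theorem result {V : Type*} [Fintype V] [DecidableEq V] (k : ℕ) (F : Finset (Finset V))
    (hF : ∀ t ∈ F, t.card = k + 3)
    (hpm : ∀ s ∈ faces F (k + 1), fdeg F s = 2)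
    (hconn : ∀ a ∈ F, ∀ b ∈ F,
      Relation.ReflTransGen (fun x y => x ∈ F ∧ y ∈ F ∧ (x ∩ y).card = k + 2) a b)
    (ε : ℝ) (hε : 0 < ε)
    (hexp : ∀ f : Finset V → ZMod 2, ∃ g : Finset V → ZMod 2,
      ε * cnorm F (k + 2) (k + 1) (f + cob k g) ≤ cnorm F (k + 2) (k + 2) (cob (k + 1) f)) :
    ε * Real.log (F.card : ℝ) ≤ ((k : ℝ) + 3) * Real.log ((k : ℝ) + 4) :=
  pseudomanifold_bound k F hF hpm hconn ε hε hexp

end Vale.Agent.Results.P067.A_PseudomanifoldObstruction
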