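import Vale.Agent.H18.PM.Main

/-!
P067: pseudomanifolds are never good coboundary expanders, with an explicit bound for the
number of top faces and for the number of vertices.

A pure d-dimensional complex (d = k + 2) is given by the family F of its d-faces.  If every
(d-1)-face lies in exactly two d-faces and the dual graph is connected, then the coboundary
expansion inequality at level d - 1 with constant ε forces
ε * log |F| ≤ (d + 1) * log (d + 2), hence |F| ≤ (d + 2) ^ ((d + 1) / ε) and
|X(0)| ≤ (d + 1) * (d + 2) ^ ((d + 1) / ε).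
-/

namespace Vale.Agent.Results.P067.B_PseudomanifoldVertexBound

open H18PM

/-- The number of vertices (0-faces) of the complex is at most (d + 1) times the number of
d-faces. -/
theorem card_faces_zero_le {V : Type*} [Fintype V] [DecidableEq V] (k : ℕ)
    (F : Finset (Finset V)) (hF : ∀ t ∈ F, t.card = k + 3) :
    (faces F 0).card ≤ (k + 3) * F.card := by
  have hsub : faces F 0 ⊆ F.biUnion (fun t => t.powersetCard 1) := by
    intro s hs
    unfold faces at hs
    rw [Finset.mem_filter, Finset.mem_powersetCard] at hs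
    obtain ⟨⟨_, hc⟩, t, ht, hst⟩ := hs
    rw [Finset.mem_biUnion]
    exact ⟨t, ht, Finset.mem_powersetCard.mpr ⟨hst, hc⟩⟩
  calc (faces F 0).card ≤ (F.biUnion (fun t => t.powersetCard 1)).card :=
        Finset.card_le_card hsub
    _ ≤ ∑ t ∈ F, (t.powersetCard 1).card := Finset.card_biUnion_le
    _ = ∑ t ∈ F, (k + 3) := by
        apply Finset.sum_congr rfl
        intro t ht
        rw [Finset.card_powersetCard, hF t ht, Nat.choose_one_right]
    _ = (k + 3) * F.card := by rw [Finset.sum_const, smul_eq_mul, mul_comm]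

/-- Let d = k + 2, let F be a family of (d+1)-element subsets of a finite vertex type V
(the d-faces of a pure d-dimensional simplicial complex X), such that every (d-1)-face lies
in exactly two members of F (hpm) and any two members of F are joined by a chain of members of
F in which consecutive ones share d vertices (hconn).  Suppose ε > 0 and the coboundary
expansion inequality holds at level d - 1: for every (d-1)-cochain f there is a
(d-2)-cochain g with ε * ‖f + δ g‖_{d-1} ≤ ‖δ f‖_d, that is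
‖δ f‖_d ≥ ε * dist (f, B^{d-1}).  Then ε * log |F| ≤ (d + 1) * log (d + 2), the number of
d-faces is at most (d + 2) ^ ((d + 1) / ε), and the number of vertices of X is at most
(d + 1) * (d + 2) ^ ((d + 1) / ε). -/
theorem result {V : Type*} [Fintype V] [DecidableEq V] (k : ℕ) (F : Finset (Finset V))
    (hF : ∀ t ∈ F, t.card = k + 3)
    (hpm : ∀ s ∈ faces F (k + 1), fdeg F s = 2)
    (hconn : ∀ a ∈ F, ∀ b ∈ F,
      Relation.ReflTransGen (fun x y => x ∈ F ∧ y ∈ F ∧ (x ∩ y).card = k + 2) a b)
    (ε : ℝ) (hε : 0 < ε)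
    (hexp : ∀ f : Finset V → ZMod 2, ∃ g : Finset V → ZMod 2,
      ε * cnorm F (k + 2) (k + 1) (f + cob k g) ≤ cnorm F (k + 2) (k + 2) (cob (k + 1) f)) :
    ε * Real.log (F.card : ℝ) ≤ ((k : ℝ) + 3) * Real.log ((k : ℝ) + 4) ∧
    (F.card : ℝ) ≤ ((k : ℝ) + 4) ^ (((k : ℝ) + 3) / ε) ∧
    ((faces F 0).card : ℝ) ≤ ((k : ℝ) + 3) * ((k : ℝ) + 4) ^ (((k : ℝ) + 3) / ε) := by
  have h1 : ε * Real.log (F.card : ℝ) ≤ ((k : ℝ) + 3) * Real.log ((k : ℝ) + 4) :=
    pseudomanifold_bound k F hF hpm hconn ε hε hexp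
  have hk4 : (0 : ℝ) < (k : ℝ) + 4 := by positivity
  have hpow : (0 : ℝ) < ((k : ℝ) + 4) ^ (((k : ℝ) + 3) / ε) := Real.rpow_pos_of_pos hk4 _
  have h2 : (F.card : ℝ) ≤ ((k : ℝ) + 4) ^ (((k : ℝ) + 3) / ε) := by
    rcases Nat.eq_zero_or_pos F.card with h0 | hpos
    · rw [h0, Nat.cast_zero]
      exact hpow.le
    · have hc : (0 : ℝ) < (F.card : ℝ) := by exact_mod_cast hpos
      rw [← Real.log_le_log_iff hc hpow, Real.log_rpow hk4, div_mul_eq_mul_div,
        le_div_iff₀ hε]
      linarith [h1]
  refine ⟨h1, h2, ?_⟩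
  have h3 : ((faces F 0).card : ℝ) ≤ ((k : ℝ) + 3) * (F.card : ℝ) := by
    exact_mod_cast card_faces_zero_le k F hF
  have hk3 : (0 : ℝ) ≤ (k : ℝ) + 3 := by positivity
  calc ((faces F 0).card : ℝ) ≤ ((k : ℝ) + 3) * (F.card : ℝ) := h3
    _ ≤ ((k : ℝ) + 3) * ((k : ℝ) + 4) ^ (((k : ℝ) + 3) / ε) :=
        mul_le_mul_of_nonneg_left h2 hk3

end Vale.Agent.Results.P067.B_PseudomanifoldVertexBound
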